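import Vale.Agent.P358.Main

/-! # P358: `C(A_{γ,ν}) = χ(A_{γ,ν})` for all `γ, ν ∈ [0,1]`

Conventions: index `0` is the ground state, index `1` the excited state of the qubit; `n` qubits are
described by matrices indexed by bit strings `Fin n → Fin 2`. -/

open Matrix
open scoped ComplexOrder

namespace Vale.Agent.Results.P358.Capacity

/-- The generalized amplitude-damping channel, extended linearly from density matrices to all
`2 × 2` matrices: a density matrix with entries `1 - q, z; conj z, q` is sent to the matrix with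
entries `1 - t, √(1-γ) z; √(1-γ) conj z, t`, where `t = (1-γ) q + γ ν`. -/
noncomputable def channel (γ ν : ℝ) (ρ : Matrix (Fin 2) (Fin 2) ℂ) : Matrix (Fin 2) (Fin 2) ℂ :=
  !![ρ.trace - ((1 - γ) * ρ 1 1 + γ * ν * ρ.trace), √(1 - γ) * ρ 0 1;
    √(1 - γ) * ρ 1 0, (1 - γ) * ρ 1 1 + γ * ν * ρ.trace]

/-- The `n`-fold tensor power of a linear map `N` on `2 × 2` matrices, described by its action on
matrix units: `E_{x' y'} = ⨂ᵢ E_{x'ᵢ y'ᵢ}` is sent to `⨂ᵢ N (E_{x'ᵢ y'ᵢ})`. -/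
noncomputable def power (N : Matrix (Fin 2) (Fin 2) ℂ → Matrix (Fin 2) (Fin 2) ℂ) (n : ℕ)
    (ρ : Matrix (Fin n → Fin 2) (Fin n → Fin 2) ℂ) : Matrix (Fin n → Fin 2) (Fin n → Fin 2) ℂ :=
  Matrix.of fun x y => ∑ x' : Fin n → Fin 2, ∑ y' : Fin n → Fin 2,
    (∏ i, N (Matrix.single (x' i) (y' i) 1) (x i) (y i)) * ρ x' y'

/-- The von Neumann entropy in bits of a Hermitian matrix, from its eigenvalues. -/
noncomputable def vonNeumann {d : Type} [Fintype d] [DecidableEq d] (ρ : Matrix d d ℂ) : ℝ :=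
  open Classical in
  if h : ρ.IsHermitian then -∑ i, h.eigenvalues i * Real.logb 2 (h.eigenvalues i) else 0

/-- `v` is the Holevo information `S(∑ qₐ Φ(ρₐ)) - ∑ qₐ S(Φ(ρₐ))` of a finite ensemble
`{qₐ, ρₐ}` of density matrices under the map `Φ`. -/
def IsHolevoValue {d : Type} [Fintype d] [DecidableEq d] (Φ : Matrix d d ℂ → Matrix d d ℂ)
    (v : ℝ) : Prop :=
  ∃ (k : ℕ) (q : Fin k → ℝ) (ρ : Fin k → Matrix d d ℂ),
    (∀ a, 0 ≤ q a) ∧ ∑ a, q a = 1 ∧ (∀ a, (ρ a).PosSemidef ∧ (ρ a).trace = 1) ∧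
    v = vonNeumann (∑ a, (q a : ℂ) • Φ (ρ a)) - ∑ a, q a * vonNeumann (Φ (ρ a))

/-- The Holevo capacity `χ(Φ)`. -/
noncomputable def chi {d : Type} [Fintype d] [DecidableEq d] (Φ : Matrix d d ℂ → Matrix d d ℂ) :
    ℝ := sSup {v | IsHolevoValue Φ v}

/-- The classical capacity `C(N) = sup_{n ≥ 1} χ(N^{⊗n}) / n`. -/
noncomputable def capacity (N : Matrix (Fin 2) (Fin 2) ℂ → Matrix (Fin 2) (Fin 2) ℂ) : ℝ :=
  ⨆ n : ℕ+, chi (power N n) / n

theorem vonNeumann_eq {d : Type} [Fintype d] [DecidableEq d] (ρ : Matrix d d ℂ) :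
    vonNeumann ρ = Vale.Agent.P358.entropy ρ := by
  unfold vonNeumann Vale.Agent.P358.entropy
  split_ifs with h
  · rw [Finset.sum_neg_distrib]
  · rfl

theorem setOf_eq {d : Type} [Fintype d] [DecidableEq d] (Φ : Matrix d d ℂ →ₗ[ℂ] Matrix d d ℂ) :
    {v | IsHolevoValue (⇑Φ) v} = Vale.Agent.P358.holevoValues Φ := by
  ext v
  unfold IsHolevoValue
  simp only [vonNeumann_eq]
  rfl

theorem chi_eq {d : Type} [Fintype d] [DecidableEq d] (Φ : Matrix d d ℂ →ₗ[ℂ] Matrix d d ℂ) :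
    chi (⇑Φ) = Vale.Agent.P358.holevoCapacity Φ := by
  unfold chi Vale.Agent.P358.holevoCapacity
  rw [setOf_eq]

theorem result (γ ν : ℝ) (hγ : 0 ≤ γ ∧ γ ≤ 1) (hν : 0 ≤ ν ∧ ν ≤ 1) :
    capacity (channel γ ν) = chi (channel γ ν) ∧
    (∀ n : ℕ, 1 ≤ n → chi (power (channel γ ν) n) = n * chi (channel γ ν)) ∧
    (∀ n : ℕ, 1 ≤ n → BddAbove {v | IsHolevoValue (power (channel γ ν) n) v}) := by
  have hN := Vale.Agent.P358.isCh_gadc hγ.1 hγ.2 hν.1 hν.2
  have hT := Vale.Agent.P358.isCh_tensorPower hγ.1 hγ.2 hν.1 hν.2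
  have hsub := Vale.Agent.P358.holevo_sub hγ.1 hγ.2 hν.1 hν.2
  have e1 : channel γ ν = ⇑(Vale.Agent.P358.gadc γ ν) := rfl
  have e2 : ∀ n : ℕ, power (⇑(Vale.Agent.P358.gadc γ ν)) n =
      ⇑(Vale.Agent.P358.tensorPower (Vale.Agent.P358.gadc γ ν) n) := fun _ => rfl
  rw [e1]
  refine ⟨?_, ?_, ?_⟩
  · have h := Vale.Agent.P358.classicalCapacity_eq_of_sub hN hT hsub
    unfold capacity
    simp only [e2, chi_eq]
    exact h
  · intro n _
    rw [e2, chi_eq, chi_eq]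
    exact Vale.Agent.P358.holevoCapacity_tensorPower_of_sub hN hT hsub n
  · intro n _
    rw [e2, setOf_eq]
    exact Vale.Agent.P358.holevoValues_bddAbove (hT n)

end Vale.Agent.Results.P358.Capacity
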