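import Vale.Agent.P358.Main

/-! # P358: the classical capacity of every generalized amplitude-damping channel equals its
Holevo capacity.

For all `γ, ν ∈ [0,1]`, with `A = gadc γ ν`:
* `C(A) = χ(A)`;
* `χ(A^{⊗n}) = n χ(A)` for every `n`;
* all suprema involved are genuine (nonempty sets that are bounded above). -/

open Vale.Agent.P358

theorem Vale.Agent.Results.P358.Full.result (γ ν : ℝ) (hγ : γ ∈ Set.Icc (0 : ℝ) 1)
    (hν : ν ∈ Set.Icc (0 : ℝ) 1) :
    classicalCapacity (gadc γ ν) = holevoCapacity (gadc γ ν) ∧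
    (∀ n : ℕ, holevoCapacity (tensorPower (gadc γ ν) n) = n * holevoCapacity (gadc γ ν)) ∧
    ((holevoValues (gadc γ ν)).Nonempty ∧ BddAbove (holevoValues (gadc γ ν))) ∧
    (∀ n : ℕ, (holevoValues (tensorPower (gadc γ ν) n)).Nonempty ∧
      BddAbove (holevoValues (tensorPower (gadc γ ν) n))) ∧
    BddAbove (Set.range fun n : ℕ+ => holevoCapacity (tensorPower (gadc γ ν) n) / (n : ℝ)) := by
  have hN := isCh_gadc hγ.1 hγ.2 hν.1 hν.2
  have hT := isCh_tensorPower hγ.1 hγ.2 hν.1 hν.2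
  have hsub := holevo_sub hγ.1 hγ.2 hν.1 hν.2
  have hpow := holevoCapacity_tensorPower_of_sub hN hT hsub
  refine ⟨classicalCapacity_eq_of_sub hN hT hsub, hpow,
    ⟨holevoValues_nonempty _, holevoValues_bddAbove hN⟩,
    fun n => ⟨holevoValues_nonempty _, holevoValues_bddAbove (hT n)⟩, ?_⟩
  refine ⟨holevoCapacity (gadc γ ν), ?_⟩
  rintro _ ⟨n, rfl⟩
  have hn : (n : ℝ) ≠ 0 := by exact_mod_cast n.pos.ne'
  simp only
  rw [hpow n]
  field_simp
  exact le_refl _
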